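import Mathlib

namespace Vale.Agent.Results.P061.ThinTreeLowerBound

open Finset

/-- `cut G S` is the number of edges of `G` with exactly one endpoint in `S`
(each such edge is counted once, from its endpoint in `S`). -/
noncomputable def cut {V : Type*} [Fintype V] [DecidableEq V] (G : SimpleGraph V)
    (S : Finset V) : ℕ :=
  open Classical in ((S ×ˢ Sᶜ).filter (fun p => G.Adj p.1 p.2)).card

/-- `G` is `k`-edge-connected: every nonempty proper vertex set is left by at least `k` edges. -/
def EdgeConnected {V : Type*} [Fintype V] [DecidableEq V] (k : ℕ) (G : SimpleGraph V) : Prop :=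
  ∀ S : Finset V, S.Nonempty → S ≠ Finset.univ → k ≤ cut G S

/-- `T` is an `α`-thin spanning tree of `G`. -/
def IsThinTree {V : Type*} [Fintype V] [DecidableEq V] (α : ℝ) (G T : SimpleGraph V) : Prop :=
  T ≤ G ∧ T.IsTree ∧
    ∀ S : Finset V, S.Nonempty → S ≠ Finset.univ → (cut T S : ℝ) ≤ α * (cut G S : ℝ)

lemma cut_top {V : Type*} [Fintype V] [DecidableEq V] (S : Finset V) :
    cut (⊤ : SimpleGraph V) S = S.card * (Fintype.card V - S.card) := by
  classical
  unfold cut
  have hall : ∀ p ∈ S ×ˢ Sᶜ, (⊤ : SimpleGraph V).Adj p.1 p.2 := by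
    intro p hp
    rw [Finset.mem_product] at hp
    simp only [SimpleGraph.top_adj]
    intro h
    have h2 := hp.2
    rw [Finset.mem_compl] at h2
    exact h2 (h ▸ hp.1)
  have hEq : (S ×ˢ Sᶜ).filter (fun p => (⊤ : SimpleGraph V).Adj p.1 p.2) = S ×ˢ Sᶜ :=
    Finset.filter_true_of_mem hall
  calc _ = ((S ×ˢ Sᶜ).filter (fun p => (⊤ : SimpleGraph V).Adj p.1 p.2)).card := by
        congr
    _ = _ := by rw [hEq, Finset.card_product, Finset.card_compl]

lemma cut_tree {V : Type*} [Fintype V] [DecidableEq V] (T : SimpleGraph V) (hT : T.IsTree) :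
    ∃ S : Finset V, cut T S + 1 = Fintype.card V := by
  classical
  obtain ⟨c⟩ := hT.colorable_two
  refine ⟨Finset.univ.filter (fun v => c v = 0), ?_⟩
  have hb : T.IsBipartiteWith (↑(Finset.univ.filter (fun v => c v = 0)) : Set V)
      (↑(Finset.univ.filter (fun v => c v = 1)) : Set V) := by
    constructor
    · rw [Finset.disjoint_coe, Finset.disjoint_left]
      intro v hv hv'
      simp only [Finset.mem_filter, Finset.mem_univ, true_and] at hv hv'
      rw [hv] at hv'
      exact absurd hv' (by decide)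
    · intro v w hvw
      have hne := c.valid hvw
      simp only [Finset.coe_filter, Finset.mem_univ, true_and, Set.mem_ofPred_eq]
      have h1 : ∀ a b : Fin 2, a ≠ b → (a = 0 ∧ b = 1) ∨ (a = 1 ∧ b = 0) := by decide
      exact h1 _ _ hne
  have hsum := SimpleGraph.isBipartiteWith_sum_degrees_eq_card_edges hb
  have hcard := hT.card_edgeFinset
  have hcut : cut T (Finset.univ.filter (fun v => c v = 0))
      = ∑ v ∈ Finset.univ.filter (fun v => c v = 0), T.degree v := by
    unfold cut
    rw [Finset.card_filter, Finset.sum_product]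
    refine Finset.sum_congr rfl (fun u hu => ?_)
    rw [← Finset.card_filter, ← SimpleGraph.card_neighborFinset_eq_degree]
    congr 1
    ext v
    simp only [Finset.mem_filter, Finset.mem_compl, Finset.mem_univ, true_and,
      SimpleGraph.mem_neighborFinset]
    constructor
    · exact fun h => h.2
    · intro h
      refine ⟨?_, h⟩
      have hne := c.valid h
      simp only [Finset.mem_filter, Finset.mem_univ, true_and] at hu
      intro hv
      exact hne (hu.trans hv.symm)
  rw [hcut, hsum]
  convert hcard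

/-- Explicit form: the complete graph on `k+1` vertices is `k`-edge-connected and has no
`α`-thin spanning tree with `α < 4k/(k+1)^2`. -/
theorem complete_bound (k : ℕ) (hk : 1 ≤ k) :
    EdgeConnected k (⊤ : SimpleGraph (Fin (k + 1))) ∧
    ∀ (α : ℝ) (T : SimpleGraph (Fin (k + 1))), IsThinTree α ⊤ T →
      (4 * k : ℝ) / ((k : ℝ) + 1) ^ 2 ≤ α := by
  constructor
  · intro S hS hS'
    rw [cut_top, Fintype.card_fin]
    have h1 : 1 ≤ S.card := hS.card_pos
    have h2 : S.card < k + 1 := by
      by_contra hcon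
      apply hS'
      apply Finset.eq_univ_of_card
      rw [Fintype.card_fin]
      have h3 : S.card ≤ k + 1 := by
        have := Finset.card_le_univ S
        rwa [Fintype.card_fin] at this
      omega
    obtain ⟨a, ha⟩ : ∃ a, S.card = a + 1 := ⟨S.card - 1, by omega⟩
    obtain ⟨b, hb⟩ : ∃ b, k + 1 - S.card = b + 1 := ⟨k + 1 - S.card - 1, by omega⟩
    rw [hb, ha]
    have : k = a + b + 1 := by omega
    nlinarith
  · intro α T hT
    obtain ⟨_, hTree, hthin⟩ := hT
    obtain ⟨S, hS⟩ := cut_tree T hTree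
    rw [Fintype.card_fin] at hS
    have hcutk : cut T S = k := by omega
    have hne : S.Nonempty := by
      by_contra hcon
      rw [Finset.not_nonempty_iff_eq_empty] at hcon
      subst hcon
      simp [cut] at hcutk
      omega
    have hne' : S ≠ Finset.univ := by
      intro hcon
      subst hcon
      simp [cut] at hcutk
      omega
    have h := hthin S hne hne'
    rw [hcutk, cut_top, Fintype.card_fin] at h
    have hle : S.card ≤ k + 1 := by
      have := Finset.card_le_univ S
      rwa [Fintype.card_fin] at this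
    have hprod : ((S.card * (k + 1 - S.card) : ℕ) : ℝ) ≤ ((k : ℝ) + 1) ^ 2 / 4 := by
      rw [Nat.cast_mul, Nat.cast_sub hle]
      push_cast
      nlinarith [sq_nonneg ((k : ℝ) + 1 - 2 * (S.card : ℝ))]
    have hkpos : (0 : ℝ) < k := by exact_mod_cast hk
    have hα : 0 ≤ α := by
      by_contra hcon
      push Not at hcon
      have h0 : (0 : ℝ) ≤ ((S.card * (k + 1 - S.card) : ℕ) : ℝ) := Nat.cast_nonneg _
      nlinarith
    have h2 : (k : ℝ) ≤ α * (((k : ℝ) + 1) ^ 2 / 4) :=
      h.trans (mul_le_mul_of_nonneg_left hprod hα)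
    rw [div_le_iff₀ (by positivity)]
    linarith

/-- The constant in the strong thin tree conjecture cannot be smaller than `4`
(already for simple graphs), together with the explicit bound for complete graphs. -/
theorem result :
    (∀ k : ℕ, 1 ≤ k →
      EdgeConnected k (⊤ : SimpleGraph (Fin (k + 1))) ∧
      ∀ (α : ℝ) (T : SimpleGraph (Fin (k + 1))), IsThinTree α ⊤ T →
        (4 * k : ℝ) / ((k : ℝ) + 1) ^ 2 ≤ α) ∧
    (∀ C : ℝ,
      (∀ k : ℕ, 1 ≤ k → ∀ n : ℕ, 2 ≤ n → ∀ G : SimpleGraph (Fin n), EdgeConnected k G →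
        ∃ T : SimpleGraph (Fin n), IsThinTree (C / k) G T) → 4 ≤ C) := by
  refine ⟨complete_bound, ?_⟩
  intro C hC
  by_contra hcon
  push Not at hcon
  -- for every k: 4 k^2 ≤ C (k+1)^2
  have key : ∀ k : ℕ, 1 ≤ k → 4 * (k : ℝ) ^ 2 ≤ C * ((k : ℝ) + 1) ^ 2 := by
    intro k hk
    obtain ⟨h1, h2⟩ := complete_bound k hk
    obtain ⟨T, hT⟩ := hC k hk (k + 1) (by omega) ⊤ h1
    have h3 := h2 _ T hT
    have hkpos : (0 : ℝ) < k := by exact_mod_cast hk
    rw [div_le_div_iff₀ (by positivity) hkpos] at h3
    nlinarith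
  -- choose k large
  obtain ⟨k, hk⟩ := exists_nat_gt (max 1 (8 / (4 - C)))
  have hk1 : (1 : ℝ) < k := lt_of_le_of_lt (le_max_left _ _) hk
  have hk2 : 8 / (4 - C) < (k : ℝ) := lt_of_le_of_lt (le_max_right _ _) hk
  have hkn : 1 ≤ k := by
    have : (1 : ℝ) ≤ k := hk1.le
    exact_mod_cast this
  have h4 : 0 < 4 - C := by linarith
  rw [div_lt_iff₀ h4] at hk2
  have h5 := key k hkn
  have hC0 : 0 ≤ C := by
    by_contra hneg
    push Not at hneg
    have : C * ((k : ℝ) + 1) ^ 2 < 0 := mul_neg_of_neg_of_pos hneg (by positivity)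
    nlinarith [sq_nonneg (k : ℝ)]
  -- (4 - C) k^2 ≤ C (2k+1) < 4 (2k+1) ≤ 12 k, but (4-C) k > 8 ... need care
  nlinarith [mul_pos (lt_trans zero_lt_one hk1) h4]

end Vale.Agent.Results.P061.ThinTreeLowerBound
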