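import Mathlib
import Vale.Agent.Results.P061.ThinTreeLowerBound

namespace Vale.Agent.Results.P061.CompleteGraphs

open Finset Vale.Agent.Results.P061.ThinTreeLowerBound

lemma path_isTree (k : ℕ) : (SimpleGraph.pathGraph (k + 1)).IsTree := by
  rw [SimpleGraph.isTree_iff_connected_and_card]
  refine ⟨SimpleGraph.pathGraph_connected k, ?_⟩
  let f : Fin k → Sym2 (Fin (k + 1)) := fun i => s(i.castSucc, i.succ)
  have hinj : Function.Injective f := by
    intro a b h
    simp only [f, Sym2.eq_iff] at h
    rcases h with ⟨h1, -⟩ | ⟨h1, h2⟩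
    · exact Fin.castSucc_injective _ h1
    · exfalso
      have e1 := congrArg Fin.val h1
      have e2 := congrArg Fin.val h2
      simp only [Fin.val_castSucc, Fin.val_succ] at e1 e2
      omega
  have hset : (SimpleGraph.pathGraph (k + 1)).edgeSet = f '' Set.univ := by
    ext e
    induction e using Sym2.ind with
    | _ u v =>
      rw [SimpleGraph.mem_edgeSet, SimpleGraph.pathGraph_adj]
      simp only [Set.image_univ, Set.mem_range, f, Sym2.eq_iff]
      constructor
      · rintro (h | h)
        · have hv := v.isLt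
          refine ⟨⟨u.val, by omega⟩, Or.inl ⟨Fin.ext rfl, Fin.ext (by simpa using h)⟩⟩
        · have hu := u.isLt
          refine ⟨⟨v.val, by omega⟩, Or.inr ⟨Fin.ext rfl, Fin.ext (by simpa using h)⟩⟩
      · rintro ⟨i, ⟨h1, h2⟩ | ⟨h1, h2⟩⟩
        · left
          rw [← h1, ← h2]
          simp
        · right
          rw [← h1, ← h2]
          simp
  rw [Nat.card_coe_set_eq, hset, Set.ncard_image_of_injective _ hinj, Set.ncard_univ]
  simp

lemma cut_path_le (k : ℕ) (S : Finset (Fin (k + 1))) :
    cut (SimpleGraph.pathGraph (k + 1)) S ≤ 2 * S.card ∧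
    cut (SimpleGraph.pathGraph (k + 1)) S ≤ 2 * Sᶜ.card := by
  classical
  unfold cut
  constructor
  · have : ((S ×ˢ Sᶜ).filter (fun p => (SimpleGraph.pathGraph (k + 1)).Adj p.1 p.2)).card
        ≤ (S ×ˢ (univ : Finset Bool)).card := by
      refine card_le_card_of_injOn (fun p => (p.1, decide (p.1.val + 1 = p.2.val))) ?_ ?_
      · intro p hp
        rw [mem_coe, mem_filter, mem_product] at hp
        exact mem_coe.2 (mem_product.2 ⟨hp.1.1, mem_univ _⟩)
      · rintro ⟨u, v⟩ hp ⟨u', v'⟩ hp' h
        rw [mem_coe, mem_filter, SimpleGraph.pathGraph_adj] at hp hp'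
        simp only [Prod.mk.injEq, decide_eq_decide] at h
        obtain ⟨rfl, h2⟩ := h
        have h3 := hp.2
        have h4 := hp'.2
        simp only at h3 h4
        have : v = v' := by
          apply Fin.ext
          by_cases hc : u.val + 1 = v.val
          · have := h2.1 hc
            omega
          · have hc' : ¬ (u.val + 1 = v'.val) := fun h => hc (h2.2 h)
            omega
        rw [this]
    rw [card_product, card_univ, Fintype.card_bool] at this
    convert (this.trans (le_of_eq (Nat.mul_comm _ _))) using 2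
  · have : ((S ×ˢ Sᶜ).filter (fun p => (SimpleGraph.pathGraph (k + 1)).Adj p.1 p.2)).card
        ≤ (Sᶜ ×ˢ (univ : Finset Bool)).card := by
      refine card_le_card_of_injOn (fun p => (p.2, decide (p.1.val + 1 = p.2.val))) ?_ ?_
      · intro p hp
        rw [mem_coe, mem_filter, mem_product] at hp
        exact mem_coe.2 (mem_product.2 ⟨hp.1.2, mem_univ _⟩)
      · rintro ⟨u, v⟩ hp ⟨u', v'⟩ hp' h
        rw [mem_coe, mem_filter, SimpleGraph.pathGraph_adj] at hp hp'
        simp only [Prod.mk.injEq, decide_eq_decide] at h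
        obtain ⟨rfl, h2⟩ := h
        have h3 := hp.2
        have h4 := hp'.2
        simp only at h3 h4
        have : u = u' := by
          apply Fin.ext
          by_cases hc : u.val + 1 = v.val
          · have := h2.1 hc
            omega
          · have hc' : ¬ (u'.val + 1 = v.val) := fun h => hc (h2.2 h)
            omega
        rw [this]
    rw [card_product, card_univ, Fintype.card_bool] at this
    convert (this.trans (le_of_eq (Nat.mul_comm _ _))) using 2

/-- The complete graph `K_{k+1}` is `k`-edge-connected; the Hamiltonian path `0 - 1 - ... - k` is a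
`4/(k+1)`-thin spanning tree of it; and every `α`-thin spanning tree of it has `α ≥ 4k/(k+1)^2`. -/
theorem result (k : ℕ) (hk : 1 ≤ k) :
    EdgeConnected k (⊤ : SimpleGraph (Fin (k + 1))) ∧
    IsThinTree (4 / ((k : ℝ) + 1)) ⊤ (SimpleGraph.pathGraph (k + 1)) ∧
    (∀ (α : ℝ) (T : SimpleGraph (Fin (k + 1))), IsThinTree α ⊤ T →
      4 * (k : ℝ) / ((k : ℝ) + 1) ^ 2 ≤ α) := by
  refine ⟨(Vale.Agent.Results.P061.ThinTreeLowerBound.result.1 k hk).1, ?_⟩
  constructor
  · refine ⟨le_top, path_isTree k, ?_⟩
    intro S hS hSu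
    obtain ⟨h1, h2⟩ := cut_path_le k S
    rw [cut_top, Fintype.card_fin]
    rw [card_compl, Fintype.card_fin] at h2
    have hs1 : 1 ≤ S.card := card_pos.2 hS
    have hs2 : S.card < k + 1 := by
      obtain ⟨x, hx⟩ : ∃ x, x ∉ S := by
        by_contra hc
        push Not at hc
        exact hSu (eq_univ_iff_forall.2 hc)
      have := card_lt_univ_of_notMem hx
      simpa using this
    set s := S.card with hs
    have e1 : ((s * (k + 1 - s) : ℕ) : ℝ) = (s : ℝ) * ((k : ℝ) + 1 - s) := by
      rw [Nat.cast_mul, Nat.cast_sub hs2.le]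
      push_cast
      ring
    rw [e1]
    have h1' : (cut (SimpleGraph.pathGraph (k + 1)) S : ℝ) ≤ 2 * s := by exact_mod_cast h1
    have h2' : (cut (SimpleGraph.pathGraph (k + 1)) S : ℝ) ≤ 2 * ((k : ℝ) + 1 - s) := by
      have : ((2 * (k + 1 - s) : ℕ) : ℝ) = 2 * ((k : ℝ) + 1 - s) := by
        rw [Nat.cast_mul, Nat.cast_sub hs2.le]
        push_cast
        ring
      rw [← this]
      exact_mod_cast h2
    have hk0 : (0 : ℝ) < (k : ℝ) + 1 := by positivity
    have hs0 : (0 : ℝ) < s := by exact_mod_cast hs1
    have hs3 : (0 : ℝ) < (k : ℝ) + 1 - s := by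
      have : (s : ℝ) < (k : ℝ) + 1 := by exact_mod_cast hs2
      linarith
    rw [div_mul_eq_mul_div, le_div_iff₀ hk0]
    rcases le_total (s : ℝ) ((k : ℝ) + 1 - s) with h | h
    · nlinarith
    · nlinarith
  · intro α T hT
    exact (Vale.Agent.Results.P061.ThinTreeLowerBound.result).1 k hk |>.2 α T hT

end Vale.Agent.Results.P061.CompleteGraphs
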